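import Mathlib

/-! One-dimensional Brunn-Minkowski inequality. -/

namespace Vale.Agent.Lib.P227

open MeasureTheory Set
open scoped ENNReal Pointwise

/-- `|A| + |B| ≤ |C|` when `C ⊇ A + B`, for nonempty compact `A, B ⊆ ℝ`. -/
lemma bm_compact {A B C : Set ℝ} (hA : IsCompact A) (hB : IsCompact B) (hAne : A.Nonempty)
    (hBne : B.Nonempty) (hC : ∀ a ∈ A, ∀ b ∈ B, a + b ∈ C) :
    volume A + volume B ≤ volume C := by
  set a := sSup A with ha
  set b := sInf B with hb
  have haA : a ∈ A := hA.sSup_mem hAne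
  have hbB : b ∈ B := hB.sInf_mem hBne
  set S1 : Set ℝ := (fun x => x + (-b)) ⁻¹' A with hS1
  set S2 : Set ℝ := (fun x => x + (-a)) ⁻¹' B with hS2
  have h1 : volume S1 = volume A := measure_preimage_add_right volume (-b) A
  have h2 : volume S2 = volume B := measure_preimage_add_right volume (-a) B
  have hS2m : MeasurableSet S2 :=
    (measurable_id.add_const (-a)) hB.isClosed.measurableSet
  have hsub1 : S1 ⊆ Iic (a + b) := by
    intro x hx
    have : x + (-b) ≤ a := le_csSup hA.bddAbove hx
    simp only [mem_Iic]; linarith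
  have hsub2 : S2 ⊆ Ici (a + b) := by
    intro x hx
    have : b ≤ x + (-a) := csInf_le hB.bddBelow hx
    simp only [mem_Ici]; linarith
  have hdisj : AEDisjoint volume S1 S2 := by
    have : S1 ∩ S2 ⊆ {a + b} := by
      intro x hx
      exact le_antisymm (hsub1 hx.1) (hsub2 hx.2)
    exact measure_mono_null this (by simp)
  have hunion : S1 ∪ S2 ⊆ C := by
    rintro x (hx | hx)
    · have := hC _ hx b hbB
      simpa using this
    · have := hC a haA _ hx
      have h3 : a + (x + -a) = x := by ring
      rwa [h3] at this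
  calc volume A + volume B = volume S1 + volume S2 := by rw [h1, h2]
    _ = volume (S1 ∪ S2) := (measure_union₀ hS2m.nullMeasurableSet hdisj).symm
    _ ≤ volume C := measure_mono hunion

lemma volume_smul_real (c : ℝ) (hc : 0 ≤ c) (A : Set ℝ) :
    volume (c • A) = ENNReal.ofReal c * volume A := by
  rw [Measure.addHaar_smul]
  simp [abs_of_nonneg hc]

/-- Weighted form for compact sets. -/
lemma bm_compact_weighted {A B C : Set ℝ} {t : ℝ} (ht0 : 0 ≤ t) (ht1 : t ≤ 1)
    (hA : IsCompact A) (hB : IsCompact B) (hAne : A.Nonempty)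
    (hBne : B.Nonempty) (hC : ∀ a ∈ A, ∀ b ∈ B, (1 - t) * a + t * b ∈ C) :
    ENNReal.ofReal (1 - t) * volume A + ENNReal.ofReal t * volume B ≤ volume C := by
  rw [← volume_smul_real (1 - t) (by linarith), ← volume_smul_real t ht0]
  refine bm_compact (hA.smul _) (hB.smul _) (hAne.smul_set) (hBne.smul_set) ?_
  rintro _ ⟨a, ha, rfl⟩ _ ⟨b, hb, rfl⟩
  exact hC a ha b hb

/-- Weighted one-dimensional Brunn-Minkowski for nonempty measurable sets. -/
lemma bm_measurable {A B C : Set ℝ} {t : ℝ} (ht0 : 0 < t) (ht1 : t < 1)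
    (hA : MeasurableSet A) (hB : MeasurableSet B) (hAne : A.Nonempty)
    (hBne : B.Nonempty) (hC : ∀ a ∈ A, ∀ b ∈ B, (1 - t) * a + t * b ∈ C) :
    ENNReal.ofReal (1 - t) * volume A + ENNReal.ofReal t * volume B ≤ volume C := by
  obtain ⟨a0, ha0⟩ := hAne
  obtain ⟨b0, hb0⟩ := hBne
  have hs : 0 < 1 - t := by linarith
  -- key: for all compact subsets
  have key : ∀ A' ⊆ A, IsCompact A' → ∀ B' ⊆ B, IsCompact B' →
      ENNReal.ofReal (1 - t) * volume A' + ENNReal.ofReal t * volume B' ≤ volume C := by
    intro A' hA' hcA B' hB' hcB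
    have h1 : IsCompact (insert a0 A') := hcA.insert a0
    have h2 : IsCompact (insert b0 B') := hcB.insert b0
    refine le_trans ?_ (bm_compact_weighted ht0.le ht1.le h1 h2 (insert_nonempty _ _)
      (insert_nonempty _ _) ?_)
    · gcongr <;> exact subset_insert _ _
    · intro a ha b hb
      refine hC a ?_ b ?_
      · rcases ha with rfl | ha
        · exact ha0
        · exact hA' ha
      · rcases hb with rfl | hb
        · exact hb0
        · exact hB' hb
  by_contra hcon
  push Not at hcon
  have hc1 : ENNReal.ofReal (1 - t) ≠ 0 := by simpa using hs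
  have hc2 : ENNReal.ofReal t ≠ 0 := by simpa using ht0
  by_cases hA0 : volume A = 0
  · by_cases hB0 : volume B = 0
    · simp [hA0, hB0] at hcon
    · rw [hA0, mul_zero, zero_add] at hcon
      have : volume C / ENNReal.ofReal t < volume B := by
        rw [ENNReal.div_lt_iff (Or.inl hc2) (Or.inl ENNReal.ofReal_ne_top), mul_comm]
        exact hcon
      obtain ⟨B', hB', hcB, hlt⟩ := hB.exists_lt_isCompact this
      have := key ∅ (empty_subset _) isCompact_empty B' hB' hcB
      rw [measure_empty, mul_zero, zero_add] at this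
      rw [ENNReal.div_lt_iff (Or.inl hc2) (Or.inl ENNReal.ofReal_ne_top), mul_comm] at hlt
      exact absurd this (not_le.2 hlt)
  · by_cases hB0 : volume B = 0
    · rw [hB0, mul_zero, add_zero] at hcon
      have : volume C / ENNReal.ofReal (1 - t) < volume A := by
        rw [ENNReal.div_lt_iff (Or.inl hc1) (Or.inl ENNReal.ofReal_ne_top), mul_comm]
        exact hcon
      obtain ⟨A', hA', hcA, hlt⟩ := hA.exists_lt_isCompact this
      have := key A' hA' hcA ∅ (empty_subset _) isCompact_empty
      rw [measure_empty, mul_zero, add_zero] at this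
      rw [ENNReal.div_lt_iff (Or.inl hc1) (Or.inl ENNReal.ofReal_ne_top), mul_comm] at hlt
      exact absurd this (not_le.2 hlt)
    · obtain ⟨u, hu, v, hv, huv⟩ := ENNReal.exists_lt_add_of_lt_add hcon
        (mul_ne_zero hc1 hA0) (mul_ne_zero hc2 hB0)
      have h1 : u / ENNReal.ofReal (1 - t) < volume A := by
        rw [ENNReal.div_lt_iff (Or.inl hc1) (Or.inl ENNReal.ofReal_ne_top), mul_comm]
        exact hu
      have h2 : v / ENNReal.ofReal t < volume B := by
        rw [ENNReal.div_lt_iff (Or.inl hc2) (Or.inl ENNReal.ofReal_ne_top), mul_comm]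
        exact hv
      obtain ⟨A', hA', hcA, hltA⟩ := hA.exists_lt_isCompact h1
      obtain ⟨B', hB', hcB, hltB⟩ := hB.exists_lt_isCompact h2
      rw [ENNReal.div_lt_iff (Or.inl hc1) (Or.inl ENNReal.ofReal_ne_top), mul_comm] at hltA
      rw [ENNReal.div_lt_iff (Or.inl hc2) (Or.inl ENNReal.ofReal_ne_top), mul_comm] at hltB
      have := key A' hA' hcA B' hB' hcB
      exact absurd (huv.trans (ENNReal.add_lt_add hltA hltB)) (not_lt.2 this)

end Vale.Agent.Lib.P227
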