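import Vale.Agent.Lib.P227.Step

/-! The zero-dimensional base case, giving the unconditional case. -/

namespace Vale.Agent.Lib.P227

open MeasureTheory Set
open scoped ENNReal

theorem class_zero : ClassLBM 0 0 := by
  intro K L hK hL _ _ _ t ht0 ht1
  have hKu : K = univ := by
    obtain ⟨x, hx⟩ := hK.2.2.mono interior_subset
    ext y
    simp [Subsingleton.elim y x, hx]
  have hLu : L = univ := by
    obtain ⟨x, hx⟩ := hL.2.2.mono interior_subset
    ext y
    simp [Subsingleton.elim y x, hx]
  have hMu : logSum t K L = univ := by
    ext y
    simp only [logSum, mem_ofPred_eq, mem_univ, iff_true]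
    intro u hu
    simp [dotProduct] at hu
  rw [hMu, hKu, hLu, ← ENNReal.rpow_add_of_nonneg _ _ (by linarith) ht0]
  simp

theorem class_unconditional (n : ℕ) : ClassLBM n n := by
  have := class_lift 0 n class_zero
  rwa [zero_add] at this

end Vale.Agent.Lib.P227
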