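import Mathlib

/-! The logarithmic Brunn-Minkowski inequality in `ℝ^n = Fin n → ℝ`. -/

namespace Vale.Agent.Lib.P227

open MeasureTheory
open scoped ENNReal

/-- A convex body in `ℝ^n`: compact, convex, with nonempty interior. -/
def IsBody {n : ℕ} (K : Set (Fin n → ℝ)) : Prop :=
  IsCompact K ∧ Convex ℝ K ∧ (interior K).Nonempty

/-- Origin symmetry `K = -K`. -/
def IsSymm {n : ℕ} (K : Set (Fin n → ℝ)) : Prop := ∀ x ∈ K, -x ∈ K

/-- The support function `h_K(u) = sup_{x ∈ K} ⟨x, u⟩` (Euclidean inner product). -/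
noncomputable def supp {n : ℕ} (K : Set (Fin n → ℝ)) (u : Fin n → ℝ) : ℝ :=
  sSup ((fun x => x ⬝ᵥ u) '' K)

/-- The logarithmic combination `(1-t) K +_0 t L`: the Wulff body of `h_K^(1-t) h_L^t`,
an intersection of half-spaces over the unit sphere. -/
def logSum {n : ℕ} (t : ℝ) (K L : Set (Fin n → ℝ)) : Set (Fin n → ℝ) :=
  {x | ∀ u : Fin n → ℝ, u ⬝ᵥ u = 1 → x ⬝ᵥ u ≤ supp K u ^ (1 - t) * supp L u ^ t}

/-- The logarithmic Brunn-Minkowski inequality for the pair `K, L` (Lebesgue measure). -/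
def LogBM {n : ℕ} (K L : Set (Fin n → ℝ)) : Prop :=
  ∀ t : ℝ, 0 ≤ t → t ≤ 1 → volume K ^ (1 - t) * volume L ^ t ≤ volume (logSum t K L)

/-- `K` is invariant under the reflection `x_i ↦ -x_i` in the `i`-th coordinate hyperplane. -/
def ReflInv {n : ℕ} (i : Fin n) (K : Set (Fin n → ℝ)) : Prop :=
  ∀ x ∈ K, Function.update x i (-x i) ∈ K

end Vale.Agent.Lib.P227
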