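import Vale.Agent.Lib.P227.BM1

/-! One-dimensional Prekopa-Leindler inequality. -/

namespace Vale.Agent.Lib.P227

open MeasureTheory Set
open scoped ENNReal

/-- Layer cake for a function with values in `[0, 1]`. -/
lemma layer_le_one (f : ℝ → ℝ≥0∞) (hf : Measurable f) (hf1 : ∀ x, f x ≤ 1) :
    ∫⁻ x, f x = ∫⁻ s in Ioo (0 : ℝ) 1, volume {x | ENNReal.ofReal s < f x} := by
  have hfin : ∀ x, f x ≠ ∞ := fun x => ne_top_of_le_ne_top ENNReal.one_ne_top (hf1 x)
  have h1 : ∫⁻ x, f x = ∫⁻ x, ENNReal.ofReal (f x).toReal := by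
    refine lintegral_congr fun x => ?_
    rw [ENNReal.ofReal_toReal (hfin x)]
  rw [h1, lintegral_eq_lintegral_meas_lt volume (Filter.Eventually.of_forall fun x =>
    ENNReal.toReal_nonneg) hf.ennreal_toReal.aemeasurable]
  have hsplit : Ioi (0 : ℝ) = Ioo 0 1 ∪ Ici 1 := (Ioo_union_Ici_eq_Ioi zero_lt_one).symm
  rw [hsplit, lintegral_union measurableSet_Ici
    (by
      rw [Set.disjoint_left]
      intro x hx hx'
      exact absurd hx.2 (not_lt.2 hx'))]
  have hz : ∫⁻ s in Ici (1 : ℝ), volume {a | s < (f a).toReal} = 0 := by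
    rw [setLIntegral_congr_fun measurableSet_Ici (g := fun _ => 0)]
    · simp
    · intro s hs
      have : {a | s < (f a).toReal} = ∅ := by
        ext a
        simp only [mem_ofPred_eq, mem_empty_iff_false, iff_false, not_lt]
        have : (f a).toReal ≤ 1 := by
          have := ENNReal.toReal_mono ENNReal.one_ne_top (hf1 a)
          simpa using this
        exact this.trans hs
      simp [this]
  rw [hz, add_zero]
  refine setLIntegral_congr_fun measurableSet_Ioo ?_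
  intro s hs
  refine congrArg volume (Set.ext fun a => ?_)
  simp only [mem_ofPred_eq]
  rw [ENNReal.ofReal_lt_iff_lt_toReal hs.1.le (hfin a)]

/-- Lower layer-cake bound for a general function. -/
lemma layer_ge (h : ℝ → ℝ≥0∞) (hh : Measurable h) :
    ∫⁻ s in Ioo (0 : ℝ) 1, volume {x | ENNReal.ofReal s < h x} ≤ ∫⁻ x, h x := by
  have h1 : ∫⁻ x, min (h x) 1 ≤ ∫⁻ x, h x := lintegral_mono fun x => min_le_left _ _
  refine le_trans (le_of_eq ?_) h1
  rw [layer_le_one (fun x => min (h x) 1) (hh.min measurable_const) fun x => min_le_right _ _]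
  refine setLIntegral_congr_fun measurableSet_Ioo ?_
  intro s hs
  refine congrArg volume (Set.ext fun a => ?_)
  simp only [mem_ofPred_eq, lt_min_iff]
  constructor
  · intro hlt
    refine ⟨hlt, ?_⟩
    rw [← ENNReal.ofReal_one]
    exact (ENNReal.ofReal_lt_ofReal_iff zero_lt_one).2 hs.2
  · intro hlt
    exact hlt.1

/-- Normalised Prekopa-Leindler (both suprema equal to one), arithmetic-mean form. -/
lemma pl_norm (f g h : ℝ → ℝ≥0∞) (hf : Measurable f) (hg : Measurable g) (hh : Measurable h)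
    {t : ℝ} (ht0 : 0 < t) (ht1 : t < 1) (hf1 : ∀ x, f x ≤ 1) (hg1 : ∀ x, g x ≤ 1)
    (hfs : ∀ s < (1 : ℝ≥0∞), ∃ x, s < f x) (hgs : ∀ s < (1 : ℝ≥0∞), ∃ x, s < g x)
    (H : ∀ x y, f x ^ (1 - t) * g y ^ t ≤ h ((1 - t) * x + t * y)) :
    ENNReal.ofReal (1 - t) * (∫⁻ x, f x) + ENNReal.ofReal t * (∫⁻ x, g x) ≤ ∫⁻ x, h x := by
  refine le_trans ?_ (layer_ge h hh)
  rw [layer_le_one f hf hf1, layer_le_one g hg hg1]
  have hmA : Measurable fun s : ℝ => volume {x | ENNReal.ofReal s < f x} := by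
    apply Antitone.measurable
    intro s s' hss
    apply measure_mono
    intro x hx
    exact lt_of_le_of_lt (ENNReal.ofReal_le_ofReal hss) hx
  rw [← lintegral_const_mul' _ _ ENNReal.ofReal_ne_top,
    ← lintegral_const_mul' _ _ ENNReal.ofReal_ne_top,
    ← lintegral_add_left (hmA.const_mul _)]
  refine setLIntegral_mono' measurableSet_Ioo ?_
  intro s hs
  have hs1 : ENNReal.ofReal s < 1 := by
    rw [← ENNReal.ofReal_one]
    exact (ENNReal.ofReal_lt_ofReal_iff zero_lt_one).2 hs.2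
  refine bm_measurable ht0 ht1 (measurableSet_lt measurable_const hf)
    (measurableSet_lt measurable_const hg) (hfs _ hs1) (hgs _ hs1) ?_
  intro a ha b hb
  simp only [mem_ofPred_eq] at ha hb ⊢
  refine lt_of_lt_of_le ?_ (H a b)
  have e1 : ENNReal.ofReal s = ENNReal.ofReal s ^ (1 - t) * ENNReal.ofReal s ^ t := by
    rw [← ENNReal.rpow_add _ _ (by simpa using hs.1) ENNReal.ofReal_ne_top]
    simp
  rw [e1]
  exact ENNReal.mul_lt_mul (ENNReal.rpow_lt_rpow ha (by linarith)) (ENNReal.rpow_lt_rpow hb ht0)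

/-- Weighted AM-GM in `ℝ≥0∞`. -/
lemma amgm_ennreal (a b : ℝ≥0∞) {t : ℝ} (ht0 : 0 < t) (ht1 : t < 1) :
    a ^ (1 - t) * b ^ t ≤ ENNReal.ofReal (1 - t) * a + ENNReal.ofReal t * b := by
  have hs : 0 < 1 - t := by linarith
  by_cases ha : a = ∞
  · subst ha
    rw [ENNReal.mul_top (by simpa using hs)]
    simp
  by_cases hb : b = ∞
  · subst hb
    rw [ENNReal.mul_top (by simpa using ht0)]
    simp
  lift a to NNReal using ha
  lift b to NNReal using hb
  have hw : (1 - t).toNNReal + t.toNNReal = 1 := by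
    rw [← Real.toNNReal_add hs.le ht0.le]
    simp
  have := NNReal.geom_mean_le_arith_mean2_weighted (1 - t).toNNReal t.toNNReal a b hw
  rw [Real.coe_toNNReal _ hs.le, Real.coe_toNNReal _ ht0.le] at this
  rw [← ENNReal.coe_rpow_of_nonneg _ hs.le, ← ENNReal.coe_rpow_of_nonneg _ ht0.le,
    ENNReal.ofReal, ENNReal.ofReal]
  exact_mod_cast this

/-- One-dimensional Prekopa-Leindler inequality for bounded measurable functions. -/
theorem pl (f g h : ℝ → ℝ≥0∞) (hf : Measurable f) (hg : Measurable g) (hh : Measurable h)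
    {t : ℝ} (ht0 : 0 < t) (ht1 : t < 1) {Cf Cg : ℝ≥0∞} (hCf : Cf ≠ ∞) (hCg : Cg ≠ ∞)
    (hfb : ∀ x, f x ≤ Cf) (hgb : ∀ x, g x ≤ Cg)
    (H : ∀ x y, f x ^ (1 - t) * g y ^ t ≤ h ((1 - t) * x + t * y)) :
    (∫⁻ x, f x) ^ (1 - t) * (∫⁻ x, g x) ^ t ≤ ∫⁻ x, h x := by
  have hs : 0 < 1 - t := by linarith
  set F := ⨆ x, f x with hF
  set G := ⨆ x, g x with hG
  have hFtop : F ≠ ∞ := ne_top_of_le_ne_top hCf (iSup_le hfb)
  have hGtop : G ≠ ∞ := ne_top_of_le_ne_top hCg (iSup_le hgb)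
  by_cases hF0 : F = 0
  · have : ∀ x, f x = 0 := fun x => le_antisymm (hF0 ▸ le_iSup f x) bot_le
    simp [this, ENNReal.zero_rpow_of_pos hs]
  by_cases hG0 : G = 0
  · have : ∀ x, g x = 0 := fun x => le_antisymm (hG0 ▸ le_iSup g x) bot_le
    simp [this, ENNReal.zero_rpow_of_pos ht0]
  set c := F ^ (1 - t) * G ^ t with hc
  have hF1 : F ^ (1 - t) ≠ 0 := by simp [hF0, hFtop]
  have hF2 : F ^ (1 - t) ≠ ∞ := ENNReal.rpow_ne_top_of_nonneg hs.le hFtop
  have hG1 : G ^ t ≠ 0 := by simp [hG0, hGtop]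
  have hG2 : G ^ t ≠ ∞ := ENNReal.rpow_ne_top_of_nonneg ht0.le hGtop
  have hc0 : c ≠ 0 := mul_ne_zero hF1 hG1
  have hctop : c ≠ ∞ := ENNReal.mul_ne_top hF2 hG2
  have hcinv : c⁻¹ = (F⁻¹) ^ (1 - t) * (G⁻¹) ^ t := by
    rw [hc, ENNReal.mul_inv (Or.inl hF1) (Or.inl hF2), ENNReal.inv_rpow, ENNReal.inv_rpow]
  have key := pl_norm (fun x => f x * F⁻¹) (fun x => g x * G⁻¹) (fun x => h x * c⁻¹)
    (hf.mul_const _) (hg.mul_const _) (hh.mul_const _) ht0 ht1
    (fun x => by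
      rw [← ENNReal.div_eq_inv_mul.trans (mul_comm _ _)]
      exact ENNReal.div_le_of_le_mul (by simpa using le_iSup f x))
    (fun x => by
      rw [← ENNReal.div_eq_inv_mul.trans (mul_comm _ _)]
      exact ENNReal.div_le_of_le_mul (by simpa using le_iSup g x))
    (fun s hs1 => by
      have : s * F < F := by
        calc s * F < 1 * F := ENNReal.mul_lt_mul_left hF0 hFtop hs1
          _ = F := one_mul _
      obtain ⟨x, hx⟩ := lt_iSup_iff.1 this
      refine ⟨x, ?_⟩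
      calc s = s * F * F⁻¹ := by rw [mul_assoc, ENNReal.mul_inv_cancel hF0 hFtop, mul_one]
        _ < f x * F⁻¹ := ENNReal.mul_lt_mul_left (by simpa using hFtop) (by simpa using hF0) hx)
    (fun s hs1 => by
      have : s * G < G := by
        calc s * G < 1 * G := ENNReal.mul_lt_mul_left hG0 hGtop hs1
          _ = G := one_mul _
      obtain ⟨x, hx⟩ := lt_iSup_iff.1 this
      refine ⟨x, ?_⟩
      calc s = s * G * G⁻¹ := by rw [mul_assoc, ENNReal.mul_inv_cancel hG0 hGtop, mul_one]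
        _ < g x * G⁻¹ := ENNReal.mul_lt_mul_left (by simpa using hGtop) (by simpa using hG0) hx)
    (fun x y => by
      rw [ENNReal.mul_rpow_of_nonneg _ _ hs.le, ENNReal.mul_rpow_of_nonneg _ _ ht0.le, hcinv]
      calc f x ^ (1 - t) * F⁻¹ ^ (1 - t) * (g y ^ t * G⁻¹ ^ t)
          = f x ^ (1 - t) * g y ^ t * (F⁻¹ ^ (1 - t) * G⁻¹ ^ t) := by ring
        _ ≤ h ((1 - t) * x + t * y) * (F⁻¹ ^ (1 - t) * G⁻¹ ^ t) := by gcongr; exact H x y)
  rw [lintegral_mul_const' _ _ (by simpa using hF0), lintegral_mul_const' _ _ (by simpa using hG0),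
    lintegral_mul_const' _ _ (by simpa using hc0)] at key
  have key2 := (amgm_ennreal ((∫⁻ x, f x) * F⁻¹) ((∫⁻ x, g x) * G⁻¹) ht0 ht1).trans key
  rw [ENNReal.mul_rpow_of_nonneg _ _ hs.le, ENNReal.mul_rpow_of_nonneg _ _ ht0.le] at key2
  have key3 : (∫⁻ x, f x) ^ (1 - t) * (∫⁻ x, g x) ^ t * c⁻¹ ≤ (∫⁻ x, h x) * c⁻¹ := by
    rw [hcinv]
    calc (∫⁻ x, f x) ^ (1 - t) * (∫⁻ x, g x) ^ t * (F⁻¹ ^ (1 - t) * G⁻¹ ^ t)
        = (∫⁻ x, f x) ^ (1 - t) * F⁻¹ ^ (1 - t) * ((∫⁻ x, g x) ^ t * G⁻¹ ^ t) := by ring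
      _ ≤ (∫⁻ x, h x) * c⁻¹ := key2
      _ = (∫⁻ x, h x) * (F⁻¹ ^ (1 - t) * G⁻¹ ^ t) := by rw [hcinv]
  have hci0 : c⁻¹ ≠ 0 := by simpa using hctop
  have hcit : c⁻¹ ≠ ∞ := by simpa using hc0
  exact (ENNReal.mul_le_mul_iff_left hci0 hcit).1 key3

end Vale.Agent.Lib.P227
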