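import Vale.Agent.Lib.P227.PL

/-! Multiplicative Prekopa-Leindler inequality on the half-line. -/

namespace Vale.Agent.Lib.P227

open MeasureTheory Set
open scoped ENNReal

lemma lintegral_Ioi_eq_exp (φ : ℝ → ℝ≥0∞) :
    ∫⁻ z in Ioi (0 : ℝ), φ z = ∫⁻ s, ENNReal.ofReal (Real.exp s) * φ (Real.exp s) := by
  have := lintegral_image_eq_lintegral_abs_deriv_mul (s := univ) (f := Real.exp)
    (f' := Real.exp) MeasurableSet.univ (fun x _ => (Real.hasDerivAt_exp x).hasDerivWithinAt)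
    Real.exp_injective.injOn φ
  rw [image_univ, Real.range_exp] at this
  rw [this, Measure.restrict_univ]
  refine lintegral_congr fun s => ?_
  rw [abs_of_pos (Real.exp_pos s)]

theorem pl_mul (φ ψ χ : ℝ → ℝ≥0∞) (hφ : Measurable φ) (hψ : Measurable ψ) (hχ : Measurable χ)
    {t : ℝ} (ht0 : 0 < t) (ht1 : t < 1) {Cf Cg : ℝ≥0∞} (hCf : Cf ≠ ∞) (hCg : Cg ≠ ∞)
    (hfb : ∀ z, 0 < z → ENNReal.ofReal z * φ z ≤ Cf)
    (hgb : ∀ z, 0 < z → ENNReal.ofReal z * ψ z ≤ Cg)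
    (H : ∀ z₁ z₂, 0 < z₁ → 0 < z₂ → φ z₁ ^ (1 - t) * ψ z₂ ^ t ≤ χ (z₁ ^ (1 - t) * z₂ ^ t)) :
    (∫⁻ z in Ioi (0 : ℝ), φ z) ^ (1 - t) * (∫⁻ z in Ioi (0 : ℝ), ψ z) ^ t
      ≤ ∫⁻ z in Ioi (0 : ℝ), χ z := by
  have hs : 0 < 1 - t := by linarith
  rw [lintegral_Ioi_eq_exp φ, lintegral_Ioi_eq_exp ψ, lintegral_Ioi_eq_exp χ]
  have hexp : Measurable fun s : ℝ => ENNReal.ofReal (Real.exp s) :=
    Real.measurable_exp.ennreal_ofReal
  refine pl (fun s => ENNReal.ofReal (Real.exp s) * φ (Real.exp s))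
    (fun s => ENNReal.ofReal (Real.exp s) * ψ (Real.exp s))
    (fun s => ENNReal.ofReal (Real.exp s) * χ (Real.exp s)) (hexp.mul (hφ.comp Real.measurable_exp)) (hexp.mul (hψ.comp Real.measurable_exp))
    (hexp.mul (hχ.comp Real.measurable_exp)) ht0 ht1 hCf hCg
    (fun x => hfb _ (Real.exp_pos x)) (fun x => hgb _ (Real.exp_pos x)) ?_
  intro x y
  show (ENNReal.ofReal (Real.exp x) * φ (Real.exp x)) ^ (1 - t) *
    (ENNReal.ofReal (Real.exp y) * ψ (Real.exp y)) ^ t ≤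
    ENNReal.ofReal (Real.exp ((1 - t) * x + t * y)) * χ (Real.exp ((1 - t) * x + t * y))
  have e1 : Real.exp ((1 - t) * x + t * y) = Real.exp x ^ (1 - t) * Real.exp y ^ t := by
    rw [Real.exp_add, ← Real.exp_mul, ← Real.exp_mul, mul_comm x, mul_comm y]
  rw [ENNReal.mul_rpow_of_nonneg _ _ hs.le, ENNReal.mul_rpow_of_nonneg _ _ ht0.le, e1,
    ENNReal.ofReal_mul (by positivity), ENNReal.ofReal_rpow_of_pos (Real.exp_pos x),
    ENNReal.ofReal_rpow_of_pos (Real.exp_pos y)]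
  calc ENNReal.ofReal (Real.exp x ^ (1 - t)) * φ (Real.exp x) ^ (1 - t) *
        (ENNReal.ofReal (Real.exp y ^ t) * ψ (Real.exp y) ^ t)
      = ENNReal.ofReal (Real.exp x ^ (1 - t)) * ENNReal.ofReal (Real.exp y ^ t) *
        (φ (Real.exp x) ^ (1 - t) * ψ (Real.exp y) ^ t) := by ring
    _ ≤ _ := by
      gcongr
      exact H _ _ (Real.exp_pos x) (Real.exp_pos y)

end Vale.Agent.Lib.P227
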