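import Vale.Agent.Lib.P227.Supp

/-! Sections of a set of `ℝ^(N+1)` by the hyperplanes `x_0 = z`. -/

namespace Vale.Agent.Lib.P227

open MeasureTheory Set
open scoped ENNReal

variable {N : ℕ}

/-- The section of `K` at height `z` of the coordinate `x_0`. -/
def sec (K : Set (Fin (N + 1) → ℝ)) (z : ℝ) : Set (Fin N → ℝ) :=
  {y | (Fin.cons z y : Fin (N + 1) → ℝ) ∈ K}

lemma dot_cons (z v : ℝ) (y u : Fin N → ℝ) :
    (Fin.cons z y : Fin (N + 1) → ℝ) ⬝ᵥ (Fin.cons v u : Fin (N + 1) → ℝ) = z * v + y ⬝ᵥ u := by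
  simp [dotProduct, Fin.sum_univ_succ]

lemma cons_neg_mem {K : Set (Fin (N + 1) → ℝ)} (h0 : ReflInv 0 K) {z : ℝ} {y : Fin N → ℝ}
    (h : (Fin.cons z y : Fin (N + 1) → ℝ) ∈ K) : (Fin.cons (-z) y : Fin (N + 1) → ℝ) ∈ K := by
  have := h0 _ h
  rwa [Fin.cons_zero, Fin.update_cons_zero] at this

lemma sec_neg {K : Set (Fin (N + 1) → ℝ)} (h0 : ReflInv 0 K) (z : ℝ) : sec K (-z) = sec K z := by
  ext y
  constructor
  · intro h
    have := cons_neg_mem h0 h
    rwa [neg_neg] at this
  · intro h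
    exact cons_neg_mem h0 h

lemma sec_symm {K : Set (Fin (N + 1) → ℝ)} (hs : IsSymm K) (h0 : ReflInv 0 K) (z : ℝ) :
    IsSymm (sec K z) := by
  intro y hy
  have h1 := hs _ hy
  have h2 : (-(Fin.cons z y : Fin (N + 1) → ℝ)) = Fin.cons (-z) (-y) := by
    ext i
    refine Fin.cases ?_ (fun j => ?_) i <;> simp
  rw [h2] at h1
  have := cons_neg_mem h0 h1
  rwa [neg_neg] at this

lemma sec_refl {K : Set (Fin (N + 1) → ℝ)} {i : Fin N} (hi : ReflInv i.succ K) (z : ℝ) :
    ReflInv i (sec K z) := by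
  intro y hy
  have := hi _ hy
  rw [Fin.cons_succ, ← Fin.cons_update] at this
  exact this

lemma sec_convex {K : Set (Fin (N + 1) → ℝ)} (hc : Convex ℝ K) (z : ℝ) :
    Convex ℝ (sec K z) := by
  intro y₁ h₁ y₂ h₂ a b ha hb hab
  have := hc h₁ h₂ ha hb hab
  have e : a • (Fin.cons z y₁ : Fin (N + 1) → ℝ) + b • (Fin.cons z y₂ : Fin (N + 1) → ℝ) =
      Fin.cons z (a • y₁ + b • y₂) := by
    ext i
    refine Fin.cases ?_ (fun j => ?_) i
    · simp only [Pi.add_apply, Pi.smul_apply, Fin.cons_zero, smul_eq_mul]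
      rw [← add_mul, hab, one_mul]
    · simp
  rw [e] at this
  exact this

lemma continuous_cons (z : ℝ) : Continuous fun y : Fin N → ℝ => (Fin.cons z y : Fin (N + 1) → ℝ) := by
  refine continuous_pi fun i => ?_
  refine Fin.cases ?_ (fun j => ?_) i
  · simpa using continuous_const
  · simpa using continuous_apply j

lemma sec_subset_tail (K : Set (Fin (N + 1) → ℝ)) (z : ℝ) :
    sec K z ⊆ (fun x : Fin (N + 1) → ℝ => Fin.tail x) '' K := by
  intro y hy
  exact ⟨_, hy, Fin.tail_cons _ _⟩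

lemma continuous_tail : Continuous fun x : Fin (N + 1) → ℝ => (Fin.tail x : Fin N → ℝ) :=
  continuous_pi fun j => continuous_apply j.succ

lemma sec_compact {K : Set (Fin (N + 1) → ℝ)} (hK : IsCompact K) (z : ℝ) :
    IsCompact (sec K z) :=
  (hK.image continuous_tail).of_isClosed_subset (hK.isClosed.preimage (continuous_cons z))
    (sec_subset_tail K z)

lemma exists_height {K : Set (Fin (N + 1) → ℝ)} (hK : IsCompact K) :
    ∃ a : ℝ, 0 ≤ a ∧ ∀ z, a < z → sec K z = ∅ := by
  obtain ⟨a, ha⟩ := (hK.image (continuous_apply (0 : Fin (N + 1)))).bddAbove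
  refine ⟨max a 0, le_max_right _ _, fun z hz => ?_⟩
  ext y
  simp only [mem_empty_iff_false, iff_false]
  intro hy
  have : z ≤ a := ha ⟨_, hy, by simp⟩
  exact absurd (lt_of_le_of_lt (le_max_left a 0) hz) (not_lt.2 this)

/-- Uniform bound needed for the Prekopa-Leindler inequality. -/
lemma exists_bound {K : Set (Fin (N + 1) → ℝ)} (hK : IsCompact K) :
    ∃ C : ℝ≥0∞, C ≠ ∞ ∧ ∀ z, 0 < z → ENNReal.ofReal z * volume (sec K z) ≤ C := by
  obtain ⟨a, ha0, ha⟩ := exists_height hK
  have hfin : volume ((fun x : Fin (N + 1) → ℝ => (Fin.tail x : Fin N → ℝ)) '' K) ≠ ∞ :=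
    (hK.image continuous_tail).measure_lt_top.ne
  refine ⟨ENNReal.ofReal a * volume ((fun x : Fin (N + 1) → ℝ => (Fin.tail x : Fin N → ℝ)) '' K),
    ENNReal.mul_ne_top ENNReal.ofReal_ne_top hfin, fun z _ => ?_⟩
  by_cases hz : a < z
  · rw [ha z hz]; simp
  · push Not at hz
    gcongr
    exact sec_subset_tail K z

/-- Fubini: the volume is the integral of the volumes of the sections. -/
lemma volume_eq_lintegral_sec {K : Set (Fin (N + 1) → ℝ)} (hK : MeasurableSet K) :
    volume K = ∫⁻ z, volume (sec K z) := by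
  have mp := volume_preserving_piFinSuccAbove (fun _ : Fin (N + 1) => ℝ) 0
  set e := MeasurableEquiv.piFinSuccAbove (fun _ : Fin (N + 1) => ℝ) 0 with he
  have h1 : volume K = volume (e.symm ⁻¹' K) := by
    rw [← mp.measure_preimage_equiv]
    congr 1
    ext x
    simp
  rw [h1, Measure.volume_eq_prod, Measure.prod_apply (e.symm.measurable hK)]
  refine lintegral_congr fun z => ?_
  refine congrArg volume (Set.ext fun y => ?_)
  simp only [mem_preimage, sec, mem_ofPred_eq, he]
  rw [MeasurableEquiv.piFinSuccAbove_symm_apply]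
  have e3 : (Fin.insertNthEquiv (fun _ : Fin (N + 1) => ℝ) 0) (z, y) = Fin.cons z y := by
    funext j
    rw [Fin.insertNthEquiv_apply]
    simp [Fin.insertNth_zero']
  rw [e3]

lemma measurable_volume_sec {K : Set (Fin (N + 1) → ℝ)} (hK : MeasurableSet K) :
    Measurable fun z => volume (sec K z) := by
  set e := MeasurableEquiv.piFinSuccAbove (fun _ : Fin (N + 1) => ℝ) 0 with he
  have h := measurable_measure_prodMk_left (ν := (volume : Measure (Fin N → ℝ)))
    (e.symm.measurable hK)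
  have e2 : (fun z => volume (sec K z)) = fun z => volume (Prod.mk z ⁻¹' (e.symm ⁻¹' K)) := by
    funext z
    refine congrArg volume (Set.ext fun y => ?_)
    simp only [mem_preimage, sec, mem_ofPred_eq, he]
    rw [MeasurableEquiv.piFinSuccAbove_symm_apply]
    have e3 : (Fin.insertNthEquiv (fun _ : Fin (N + 1) => ℝ) 0) (z, y) = Fin.cons z y := by
      funext j
      rw [Fin.insertNthEquiv_apply]
      simp [Fin.insertNth_zero']
    rw [e3]
  rw [e2]
  exact h

/-- The integral of an even function is twice its integral over the half-line. -/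
lemma lintegral_even (φ : ℝ → ℝ≥0∞) (hφ : Measurable φ) (heven : ∀ z, φ (-z) = φ z) :
    ∫⁻ z, φ z = 2 * ∫⁻ z in Ioi (0 : ℝ), φ z := by
  have h1 : ∫⁻ z in Iio (0 : ℝ), φ z = ∫⁻ z in Ioi (0 : ℝ), φ z := by
    have := (Measure.measurePreserving_neg (volume : Measure ℝ)).setLIntegral_comp_preimage
      (measurableSet_Ioi (a := (0 : ℝ))) hφ
    rw [← this]
    have e : (fun x : ℝ => -x) ⁻¹' Ioi 0 = Iio 0 := by
      ext x; simp
    rw [e]
    refine lintegral_congr fun z => (heven z).symm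
  have h2 : ∫⁻ z in Iic (0 : ℝ), φ z = ∫⁻ z in Iio (0 : ℝ), φ z :=
    setLIntegral_congr Iio_ae_eq_Iic.symm
  rw [← lintegral_add_compl φ (measurableSet_Iic (a := (0 : ℝ))), compl_Iic, h2, h1, two_mul]

end Vale.Agent.Lib.P227
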