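import Vale.Agent.Lib.P227.Sec
import Vale.Agent.Lib.P227.PLMul

/-! The fibration step: from sections to the whole body. -/

namespace Vale.Agent.Lib.P227

open MeasureTheory Set
open scoped ENNReal

variable {N : ℕ}

lemma supp_sec_add_le {K : Set (Fin (N + 1) → ℝ)} (hK : IsCompact K) (h0 : ReflInv 0 K) {z : ℝ}
    (hne : (sec K z).Nonempty) (v : ℝ) (u : Fin N → ℝ) :
    supp (sec K z) u + z * |v| ≤ supp K (Fin.cons v u) := by
  have : supp (sec K z) u ≤ supp K (Fin.cons v u) - z * |v| := by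
    refine supp_le hne fun y hy => ?_
    have h1 := le_supp hK hy (Fin.cons v u)
    have h2 := le_supp hK (cons_neg_mem h0 hy) (Fin.cons v u)
    rw [dot_cons] at h1 h2
    rcases abs_cases v with ⟨h, _⟩ | ⟨h, _⟩ <;> rw [h] <;> linarith
  linarith

/-- The logarithmic combination of two sections sits inside a section of the logarithmic
combination. -/
lemma logSum_sec_subset {K L : Set (Fin (N + 1) → ℝ)} (hK : IsCompact K) (hL : IsCompact L)
    (hKs : IsSymm K) (hLs : IsSymm L) (h0K : ReflInv 0 K) (h0L : ReflInv 0 L) {t : ℝ}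
    (ht0 : 0 < t) (ht1 : t < 1) {z₁ z₂ : ℝ} (hz₁ : 0 < z₁) (hz₂ : 0 < z₂)
    (hne₁ : (sec K z₁).Nonempty) (hne₂ : (sec L z₂).Nonempty) :
    logSum t (sec K z₁) (sec L z₂) ⊆ sec (logSum t K L) (z₁ ^ (1 - t) * z₂ ^ t) := by
  intro y hy w _
  have hs : 0 < 1 - t := by linarith
  obtain ⟨v, u, rfl⟩ : ∃ v u, w = (Fin.cons v u : Fin (N + 1) → ℝ) :=
    ⟨w 0, Fin.tail w, (Fin.cons_self_tail w).symm⟩
  rw [dot_cons]
  have hA₁ := supp_nonneg (sec_compact hK z₁) (sec_symm hKs h0K z₁) hne₁ u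
  have hA₂ := supp_nonneg (sec_compact hL z₂) (sec_symm hLs h0L z₂) hne₂ u
  have h1 := dot_le_of_mem_logSum (sec_compact hK z₁) (sec_compact hL z₂) (sec_symm hKs h0K z₁)
    (sec_symm hLs h0L z₂) hne₁ hne₂ ht0 ht1 hy u
  have hB₁ : 0 ≤ z₁ * |v| := by positivity
  have hB₂ : 0 ≤ z₂ * |v| := by positivity
  have h2 := holder2 hA₁ hA₂ hB₁ hB₂ ht0 ht1
  have h3 : (z₁ * |v|) ^ (1 - t) * (z₂ * |v|) ^ t = z₁ ^ (1 - t) * z₂ ^ t * |v| := by
    rw [Real.mul_rpow hz₁.le (abs_nonneg v), Real.mul_rpow hz₂.le (abs_nonneg v)]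
    have e : |v| ^ (1 - t) * |v| ^ t = |v| := by
      rcases (abs_nonneg v).eq_or_lt with h | h
      · rw [← h, Real.zero_rpow hs.ne', zero_mul]
      · rw [← Real.rpow_add h]; simp
    calc z₁ ^ (1 - t) * |v| ^ (1 - t) * (z₂ ^ t * |v| ^ t)
        = z₁ ^ (1 - t) * z₂ ^ t * (|v| ^ (1 - t) * |v| ^ t) := by ring
      _ = _ := by rw [e]
  have h4 : (supp (sec K z₁) u + z₁ * |v|) ^ (1 - t) * (supp (sec L z₂) u + z₂ * |v|) ^ t ≤
      supp K (Fin.cons v u) ^ (1 - t) * supp L (Fin.cons v u) ^ t := by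
    have k1 := supp_sec_add_le hK h0K hne₁ v u
    have k2 := supp_sec_add_le hL h0L hne₂ v u
    have p1 : 0 ≤ supp (sec K z₁) u + z₁ * |v| := add_nonneg hA₁ hB₁
    have p2 : 0 ≤ supp (sec L z₂) u + z₂ * |v| := add_nonneg hA₂ hB₂
    exact mul_le_mul (Real.rpow_le_rpow p1 k1 hs.le) (Real.rpow_le_rpow p2 k2 ht0.le)
      (Real.rpow_nonneg p2 _) (Real.rpow_nonneg (p1.trans k1) _)
  have h5 : z₁ ^ (1 - t) * z₂ ^ t * v ≤ z₁ ^ (1 - t) * z₂ ^ t * |v| := by
    have : 0 ≤ z₁ ^ (1 - t) * z₂ ^ t := by positivity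
    exact mul_le_mul_of_nonneg_left (le_abs_self v) this
  linarith

lemma supp_refl {K : Set (Fin (N + 1) → ℝ)} (hK : IsCompact K) (hne : K.Nonempty)
    (h0 : ReflInv 0 K) (v : ℝ) (u : Fin N → ℝ) :
    supp K (Fin.cons (-v) u) ≤ supp K (Fin.cons v u) := by
  refine supp_le hne fun x hx => ?_
  obtain ⟨z, y, rfl⟩ : ∃ z y, x = (Fin.cons z y : Fin (N + 1) → ℝ) :=
    ⟨x 0, Fin.tail x, (Fin.cons_self_tail x).symm⟩
  have := le_supp hK (cons_neg_mem h0 hx) (Fin.cons v u)
  rw [dot_cons] at this ⊢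
  linarith

lemma supp_refl_eq {K : Set (Fin (N + 1) → ℝ)} (hK : IsCompact K) (hne : K.Nonempty)
    (h0 : ReflInv 0 K) (v : ℝ) (u : Fin N → ℝ) :
    supp K (Fin.cons (-v) u) = supp K (Fin.cons v u) := by
  refine le_antisymm (supp_refl hK hne h0 v u) ?_
  have := supp_refl hK hne h0 (-v) u
  rwa [neg_neg] at this

lemma logSum_refl {K L : Set (Fin (N + 1) → ℝ)} (hK : IsCompact K) (hL : IsCompact L)
    (hKne : K.Nonempty) (hLne : L.Nonempty) (h0K : ReflInv 0 K) (h0L : ReflInv 0 L) (t : ℝ) :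
    ReflInv 0 (logSum t K L) := by
  intro x hx w hw
  obtain ⟨z, y, rfl⟩ : ∃ z y, x = (Fin.cons z y : Fin (N + 1) → ℝ) :=
    ⟨x 0, Fin.tail x, (Fin.cons_self_tail x).symm⟩
  obtain ⟨v, u, rfl⟩ : ∃ v u, w = (Fin.cons v u : Fin (N + 1) → ℝ) :=
    ⟨w 0, Fin.tail w, (Fin.cons_self_tail w).symm⟩
  rw [Fin.cons_zero, Fin.update_cons_zero, dot_cons]
  have h1 := hx (Fin.cons (-v) u) (by rw [dot_cons] at hw ⊢; linarith)
  rw [dot_cons, supp_refl_eq hK hKne h0K, supp_refl_eq hL hLne h0L] at h1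
  linarith

/-- A convex set of positive measure has nonempty interior. -/
lemma interior_nonempty_of_volume_ne_zero {n : ℕ} {S : Set (Fin n → ℝ)} (hc : Convex ℝ S)
    (h : volume S ≠ 0) : (interior S).Nonempty := by
  rw [hc.interior_nonempty_iff_affineSpan_eq_top]
  by_contra hne
  exact h (measure_mono_null (subset_affineSpan ℝ S) (Measure.addHaar_affineSubspace _ _ hne))

/-- The class of pairs for which the inequality is asserted: origin-symmetric convex bodies of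
`ℝ^N` invariant under the reflections in the first `k` coordinate hyperplanes. -/
def ClassLBM (N k : ℕ) : Prop :=
  ∀ K L : Set (Fin N → ℝ), IsBody K → IsBody L → IsSymm K → IsSymm L →
    (∀ i : Fin N, (i : ℕ) < k → ReflInv i K ∧ ReflInv i L) → LogBM K L

/-- Fibration step: if the inequality with parameter `t` holds for every pair of full-dimensional
sections, it holds for the pair `K, L`. -/
theorem fibre_step {K L : Set (Fin (N + 1) → ℝ)} (hK : IsBody K) (hL : IsBody L)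
    (hKs : IsSymm K) (hLs : IsSymm L) (h0K : ReflInv 0 K) (h0L : ReflInv 0 L) {t : ℝ}
    (ht0 : 0 < t) (ht1 : t < 1)
    (h : ∀ z₁ z₂ : ℝ, 0 < z₁ → 0 < z₂ → IsBody (sec K z₁) → IsBody (sec L z₂) →
      volume (sec K z₁) ^ (1 - t) * volume (sec L z₂) ^ t ≤
        volume (logSum t (sec K z₁) (sec L z₂))) :
    volume K ^ (1 - t) * volume L ^ t ≤ volume (logSum t K L) := by
  obtain ⟨hKc, hKconv, hKint⟩ := hK
  obtain ⟨hLc, hLconv, hLint⟩ := hL
  have hs : 0 < 1 - t := by linarith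
  have hKne : K.Nonempty := hKint.mono interior_subset
  have hLne : L.Nonempty := hLint.mono interior_subset
  set M := logSum t K L with hM
  have hMm : MeasurableSet M := (isClosed_logSum t K L).measurableSet
  have h0M : ReflInv 0 M := logSum_refl hKc hLc hKne hLne h0K h0L t
  have hKm : MeasurableSet K := hKc.isClosed.measurableSet
  have hLm : MeasurableSet L := hLc.isClosed.measurableSet
  rw [volume_eq_lintegral_sec hKm, volume_eq_lintegral_sec hLm, volume_eq_lintegral_sec hMm,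
    lintegral_even _ (measurable_volume_sec hKm) (fun z => by rw [sec_neg h0K]),
    lintegral_even _ (measurable_volume_sec hLm) (fun z => by rw [sec_neg h0L]),
    lintegral_even _ (measurable_volume_sec hMm) (fun z => by rw [sec_neg h0M])]
  obtain ⟨Cf, hCf, hfb⟩ := exists_bound hKc
  obtain ⟨Cg, hCg, hgb⟩ := exists_bound hLc
  have key := pl_mul (fun z => volume (sec K z)) (fun z => volume (sec L z))
    (fun z => volume (sec M z)) (measurable_volume_sec hKm) (measurable_volume_sec hLm)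
    (measurable_volume_sec hMm) ht0 ht1 hCf hCg hfb hgb ?_
  · rw [ENNReal.mul_rpow_of_nonneg _ _ hs.le, ENNReal.mul_rpow_of_nonneg _ _ ht0.le]
    have e : (2 : ℝ≥0∞) ^ (1 - t) * 2 ^ t = 2 := by
      rw [← ENNReal.rpow_add _ _ (by norm_num) (by norm_num)]; simp
    calc (2 : ℝ≥0∞) ^ (1 - t) * (∫⁻ z in Ioi (0 : ℝ), volume (sec K z)) ^ (1 - t) *
          (2 ^ t * (∫⁻ z in Ioi (0 : ℝ), volume (sec L z)) ^ t)
        = (2 ^ (1 - t) * 2 ^ t) * ((∫⁻ z in Ioi (0 : ℝ), volume (sec K z)) ^ (1 - t) *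
          (∫⁻ z in Ioi (0 : ℝ), volume (sec L z)) ^ t) := by ring
      _ ≤ _ := by rw [e]; gcongr
  · intro z₁ z₂ hz₁ hz₂
    show volume (sec K z₁) ^ (1 - t) * volume (sec L z₂) ^ t ≤
      volume (sec M (z₁ ^ (1 - t) * z₂ ^ t))
    by_cases h1 : volume (sec K z₁) = 0
    · rw [h1, ENNReal.zero_rpow_of_pos hs, zero_mul]; exact bot_le
    by_cases h2 : volume (sec L z₂) = 0
    · rw [h2, ENNReal.zero_rpow_of_pos ht0, mul_zero]; exact bot_le
    have hi1 := interior_nonempty_of_volume_ne_zero (sec_convex hKconv z₁) h1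
    have hi2 := interior_nonempty_of_volume_ne_zero (sec_convex hLconv z₂) h2
    have hb := h z₁ z₂ hz₁ hz₂ ⟨sec_compact hKc z₁, sec_convex hKconv z₁, hi1⟩
      ⟨sec_compact hLc z₂, sec_convex hLconv z₂, hi2⟩
    exact hb.trans (measure_mono (logSum_sec_subset hKc hLc hKs hLs h0K h0L ht0 ht1 hz₁ hz₂
      (hi1.mono interior_subset) (hi2.mono interior_subset)))

/-- The end-point cases `t = 0, 1` are trivial. -/
lemma logBM_of_interior {n : ℕ} {K L : Set (Fin n → ℝ)} (hK : IsCompact K) (hL : IsCompact L)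
    (h : ∀ t : ℝ, 0 < t → t < 1 → volume K ^ (1 - t) * volume L ^ t ≤ volume (logSum t K L)) :
    LogBM K L := by
  intro t ht0 ht1
  rcases ht0.eq_or_lt with rfl | ht0
  · simpa using measure_mono (μ := volume) (subset_logSum_zero (L := L) hK)
  rcases ht1.eq_or_lt with rfl | ht1
  · simpa using measure_mono (μ := volume) (subset_logSum_one (K := K) hL)
  exact h t ht0 ht1

theorem class_step {k : ℕ} (h : ClassLBM N k) : ClassLBM (N + 1) (k + 1) := by
  intro K L hK hL hKs hLs hrefl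
  refine logBM_of_interior hK.1 hL.1 fun t ht0 ht1 => ?_
  have h0K : ReflInv 0 K := (hrefl 0 (by simp)).1
  have h0L : ReflInv 0 L := (hrefl 0 (by simp)).2
  refine fibre_step hK hL hKs hLs h0K h0L ht0 ht1 fun z₁ z₂ _ _ hb1 hb2 => ?_
  exact h (sec K z₁) (sec L z₂) hb1 hb2 (sec_symm hKs h0K z₁) (sec_symm hLs h0L z₂)
      (fun i hi => ⟨sec_refl (hrefl i.succ (by simpa using hi)).1 z₁,
        sec_refl (hrefl i.succ (by simpa using hi)).2 z₂⟩) t ht0.le ht1.le

theorem class_lift (m j : ℕ) (h : ClassLBM m 0) : ClassLBM (m + j) j := by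
  induction j with
  | zero => exact h
  | succ j ih => exact class_step ih

end Vale.Agent.Lib.P227
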