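import Vale.Agent.Lib.P227.Defs

/-! Basic facts on support functions and the logarithmic combination. -/

namespace Vale.Agent.Lib.P227

open MeasureTheory Set
open scoped ENNReal Pointwise

variable {n : ℕ}

lemma continuous_dot (u : Fin n → ℝ) : Continuous fun x : Fin n → ℝ => x ⬝ᵥ u := by
  unfold dotProduct
  fun_prop

lemma bddAbove_dot {K : Set (Fin n → ℝ)} (hK : IsCompact K) (u : Fin n → ℝ) :
    BddAbove ((fun x => x ⬝ᵥ u) '' K) :=
  (hK.image (continuous_dot u)).bddAbove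

lemma le_supp {K : Set (Fin n → ℝ)} (hK : IsCompact K) {x : Fin n → ℝ} (hx : x ∈ K)
    (u : Fin n → ℝ) : x ⬝ᵥ u ≤ supp K u :=
  le_csSup (bddAbove_dot hK u) ⟨x, hx, rfl⟩

lemma supp_le {K : Set (Fin n → ℝ)} (hne : K.Nonempty) {u : Fin n → ℝ} {b : ℝ}
    (h : ∀ x ∈ K, x ⬝ᵥ u ≤ b) : supp K u ≤ b := by
  refine csSup_le (hne.image _) ?_
  rintro _ ⟨x, hx, rfl⟩
  exact h x hx

lemma supp_nonneg {K : Set (Fin n → ℝ)} (hK : IsCompact K) (hs : IsSymm K) (hne : K.Nonempty)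
    (u : Fin n → ℝ) : 0 ≤ supp K u := by
  obtain ⟨x, hx⟩ := hne
  have h1 := le_supp hK hx u
  have h2 := le_supp hK (hs x hx) u
  rw [neg_dotProduct] at h2
  linarith

lemma supp_smul (K : Set (Fin n → ℝ)) {c : ℝ} (hc : 0 ≤ c) (u : Fin n → ℝ) :
    supp K (c • u) = c * supp K u := by
  unfold supp
  have : (fun x : Fin n → ℝ => x ⬝ᵥ (c • u)) '' K = c • ((fun x => x ⬝ᵥ u) '' K) := by
    ext r
    constructor
    · rintro ⟨x, hx, rfl⟩
      exact ⟨x ⬝ᵥ u, ⟨x, hx, rfl⟩, by simp [dotProduct_smul]⟩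
    · rintro ⟨_, ⟨x, hx, rfl⟩, rfl⟩
      exact ⟨x, hx, by simp [dotProduct_smul]⟩
  rw [this, Real.sSup_smul_of_nonneg hc, smul_eq_mul]

/-- Hoelder's inequality for two terms. -/
lemma holder2 {a₁ a₂ b₁ b₂ t : ℝ} (ha₁ : 0 ≤ a₁) (ha₂ : 0 ≤ a₂) (hb₁ : 0 ≤ b₁) (hb₂ : 0 ≤ b₂)
    (ht0 : 0 < t) (ht1 : t < 1) :
    a₁ ^ (1 - t) * a₂ ^ t + b₁ ^ (1 - t) * b₂ ^ t ≤ (a₁ + b₁) ^ (1 - t) * (a₂ + b₂) ^ t := by
  have hs : 0 < 1 - t := by linarith
  rcases (add_nonneg ha₁ hb₁).eq_or_lt with h1 | h1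
  · have e1 : a₁ = 0 := by linarith
    have e2 : b₁ = 0 := by linarith
    simp [e1, e2, Real.zero_rpow hs.ne']
  rcases (add_nonneg ha₂ hb₂).eq_or_lt with h2 | h2
  · have e1 : a₂ = 0 := by linarith
    have e2 : b₂ = 0 := by linarith
    simp [e1, e2, Real.zero_rpow ht0.ne']
  set S₁ := a₁ + b₁
  set S₂ := a₂ + b₂
  have k1 := Real.geom_mean_le_arith_mean2_weighted hs.le ht0.le (div_nonneg ha₁ h1.le)
    (div_nonneg ha₂ h2.le) (by ring)
  have k2 := Real.geom_mean_le_arith_mean2_weighted hs.le ht0.le (div_nonneg hb₁ h1.le)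
    (div_nonneg hb₂ h2.le) (by ring)
  rw [Real.div_rpow ha₁ h1.le, Real.div_rpow ha₂ h2.le] at k1
  rw [Real.div_rpow hb₁ h1.le, Real.div_rpow hb₂ h2.le] at k2
  have hP : 0 < S₁ ^ (1 - t) * S₂ ^ t := by positivity
  have hsum : (1 - t) * (a₁ / S₁) + t * (a₂ / S₂) + ((1 - t) * (b₁ / S₁) + t * (b₂ / S₂)) = 1 := by
    have e1 : a₁ / S₁ + b₁ / S₁ = 1 := by rw [← add_div]; exact div_self h1.ne'
    have e2 : a₂ / S₂ + b₂ / S₂ = 1 := by rw [← add_div]; exact div_self h2.ne'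
    linear_combination (1 - t) * e1 + t * e2
  have k3 : a₁ ^ (1 - t) / S₁ ^ (1 - t) * (a₂ ^ t / S₂ ^ t) +
      b₁ ^ (1 - t) / S₁ ^ (1 - t) * (b₂ ^ t / S₂ ^ t) ≤ 1 := by linarith
  have e3 : a₁ ^ (1 - t) / S₁ ^ (1 - t) * (a₂ ^ t / S₂ ^ t) +
      b₁ ^ (1 - t) / S₁ ^ (1 - t) * (b₂ ^ t / S₂ ^ t) =
      (a₁ ^ (1 - t) * a₂ ^ t + b₁ ^ (1 - t) * b₂ ^ t) / (S₁ ^ (1 - t) * S₂ ^ t) := by
    field_simp
  rw [e3, div_le_one hP] at k3
  exact k3

/-- Membership in the logarithmic combination tested on all vectors. -/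
lemma dot_le_of_mem_logSum {K L : Set (Fin n → ℝ)} (hK : IsCompact K) (hL : IsCompact L)
    (hKs : IsSymm K) (hLs : IsSymm L) (hKne : K.Nonempty) (hLne : L.Nonempty) {t : ℝ}
    (ht0 : 0 < t) (ht1 : t < 1) {x : Fin n → ℝ} (hx : x ∈ logSum t K L) (u : Fin n → ℝ) :
    x ⬝ᵥ u ≤ supp K u ^ (1 - t) * supp L u ^ t := by
  have hs : 0 < 1 - t := by linarith
  by_cases hu : u ⬝ᵥ u = 0
  · have : u = 0 := dotProduct_self_eq_zero.1 hu
    subst this
    rw [dotProduct_zero]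
    exact mul_nonneg (Real.rpow_nonneg (supp_nonneg hK hKs hKne _) _)
      (Real.rpow_nonneg (supp_nonneg hL hLs hLne _) _)
  · have hpos : 0 < u ⬝ᵥ u := lt_of_le_of_ne (Finset.sum_nonneg fun i _ => mul_self_nonneg (u i)) (Ne.symm hu)
    set c := Real.sqrt (u ⬝ᵥ u) with hc
    have hcpos : 0 < c := Real.sqrt_pos.2 hpos
    have hcc : c * c = u ⬝ᵥ u := Real.mul_self_sqrt hpos.le
    set w := c⁻¹ • u with hw
    have hww : w ⬝ᵥ w = 1 := by
      rw [hw, smul_dotProduct, dotProduct_smul, smul_eq_mul, smul_eq_mul, ← hcc]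
      field_simp
    have huw : u = c • w := by
      rw [hw, smul_smul, mul_inv_cancel₀ hcpos.ne', one_smul]
    have h1 := hx w hww
    have hA := supp_nonneg hK hKs hKne w
    have hB := supp_nonneg hL hLs hLne w
    rw [huw, dotProduct_smul, supp_smul K hcpos.le, supp_smul L hcpos.le, smul_eq_mul,
      Real.mul_rpow hcpos.le hA, Real.mul_rpow hcpos.le hB]
    have e : c ^ (1 - t) * c ^ t = c := by
      rw [← Real.rpow_add hcpos]; simp
    calc c * (x ⬝ᵥ w) ≤ c * (supp K w ^ (1 - t) * supp L w ^ t) := by gcongr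
      _ = c ^ (1 - t) * c ^ t * (supp K w ^ (1 - t) * supp L w ^ t) := by rw [e]
      _ = _ := by ring

lemma subset_logSum_zero {K L : Set (Fin n → ℝ)} (hK : IsCompact K) : K ⊆ logSum 0 K L := by
  intro x hx u _
  simpa using le_supp hK hx u

lemma subset_logSum_one {K L : Set (Fin n → ℝ)} (hL : IsCompact L) : L ⊆ logSum 1 K L := by
  intro x hx u _
  simpa using le_supp hL hx u

lemma isClosed_logSum (t : ℝ) (K L : Set (Fin n → ℝ)) : IsClosed (logSum t K L) := by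
  have : logSum t K L = ⋂ (u : Fin n → ℝ) (_ : u ⬝ᵥ u = 1),
      {x | x ⬝ᵥ u ≤ supp K u ^ (1 - t) * supp L u ^ t} := by
    ext x
    simp [logSum]
  rw [this]
  exact isClosed_iInter fun u => isClosed_iInter fun _ =>
    isClosed_le (continuous_dot u) continuous_const

end Vale.Agent.Lib.P227
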