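import Vale.Agent.Lib.P227.Base

/-! Bodies all of whose sections are dilates of a fixed body. -/

namespace Vale.Agent.Lib.P227

open MeasureTheory Set
open scoped ENNReal Pointwise

variable {m : ℕ}

lemma supp_smul_set (C : Set (Fin m → ℝ)) {a : ℝ} (ha : 0 ≤ a) (u : Fin m → ℝ) :
    supp (a • C) u = a * supp C u := by
  unfold supp
  have : (fun x : Fin m → ℝ => x ⬝ᵥ u) '' (a • C) = a • ((fun x => x ⬝ᵥ u) '' C) := by
    ext r
    constructor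
    · rintro ⟨_, ⟨x, hx, rfl⟩, rfl⟩
      exact ⟨x ⬝ᵥ u, ⟨x, hx, rfl⟩, by simp [smul_dotProduct]⟩
    · rintro ⟨_, ⟨x, hx, rfl⟩, rfl⟩
      exact ⟨a • x, ⟨x, hx, rfl⟩, by simp [smul_dotProduct]⟩
  rw [this, Real.sSup_smul_of_nonneg ha, smul_eq_mul]

lemma smul_logSum_subset {C₁ C₂ : Set (Fin m → ℝ)} (h₁ : ∀ u, 0 ≤ supp C₁ u)
    (h₂ : ∀ u, 0 ≤ supp C₂ u) {a b t : ℝ} (ha : 0 < a) (hb : 0 < b) :
    (a ^ (1 - t) * b ^ t) • logSum t C₁ C₂ ⊆ logSum t (a • C₁) (b • C₂) := by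
  rintro _ ⟨x, hx, rfl⟩ u hu
  rw [supp_smul_set C₁ ha.le, supp_smul_set C₂ hb.le, Real.mul_rpow ha.le (h₁ u),
    Real.mul_rpow hb.le (h₂ u), smul_dotProduct, smul_eq_mul]
  have := hx u hu
  have hc : 0 ≤ a ^ (1 - t) * b ^ t := by positivity
  calc a ^ (1 - t) * b ^ t * (x ⬝ᵥ u)
      ≤ a ^ (1 - t) * b ^ t * (supp C₁ u ^ (1 - t) * supp C₂ u ^ t) :=
        mul_le_mul_of_nonneg_left this hc
    _ = _ := by ring

lemma volume_smul_pos (S : Set (Fin m → ℝ)) {a : ℝ} (ha : 0 < a) :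
    volume (a • S) = ENNReal.ofReal (a ^ m) * volume S := by
  rw [Measure.addHaar_smul]
  simp [abs_of_pos (pow_pos ha m)]

lemma ineq_dilates {C₁ C₂ : Set (Fin m → ℝ)} (h₁ : ∀ u, 0 ≤ supp C₁ u)
    (h₂ : ∀ u, 0 ≤ supp C₂ u) {a b t : ℝ} (ha : 0 < a) (hb : 0 < b) (ht0 : 0 < t) (ht1 : t < 1)
    (h : volume C₁ ^ (1 - t) * volume C₂ ^ t ≤ volume (logSum t C₁ C₂)) :
    volume (a • C₁) ^ (1 - t) * volume (b • C₂) ^ t ≤ volume (logSum t (a • C₁) (b • C₂)) := by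
  have hs : 0 < 1 - t := by linarith
  refine le_trans ?_ (measure_mono (smul_logSum_subset h₁ h₂ ha hb))
  have hc : 0 < a ^ (1 - t) * b ^ t := by positivity
  rw [volume_smul_pos _ ha, volume_smul_pos _ hb, volume_smul_pos _ hc,
    ENNReal.mul_rpow_of_nonneg _ _ hs.le, ENNReal.mul_rpow_of_nonneg _ _ ht0.le,
    ENNReal.ofReal_rpow_of_pos (pow_pos ha m), ENNReal.ofReal_rpow_of_pos (pow_pos hb m)]
  have e : (a ^ (1 - t) * b ^ t) ^ m = (a ^ m) ^ (1 - t) * (b ^ m) ^ t := by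
    rw [mul_pow, ← Real.rpow_natCast (a ^ (1 - t)), ← Real.rpow_natCast (b ^ t),
      ← Real.rpow_mul ha.le, ← Real.rpow_mul hb.le, mul_comm (1 - t), mul_comm t,
      Real.rpow_mul ha.le, Real.rpow_mul hb.le, Real.rpow_natCast, Real.rpow_natCast]
  rw [e, ENNReal.ofReal_mul (by positivity)]
  calc ENNReal.ofReal ((a ^ m) ^ (1 - t)) * volume C₁ ^ (1 - t) *
        (ENNReal.ofReal ((b ^ m) ^ t) * volume C₂ ^ t)
      = ENNReal.ofReal ((a ^ m) ^ (1 - t)) * ENNReal.ofReal ((b ^ m) ^ t) *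
        (volume C₁ ^ (1 - t) * volume C₂ ^ t) := by ring
    _ ≤ _ := by gcongr

/-- Suspension-type theorem. -/
theorem suspension {C₁ C₂ : Set (Fin m → ℝ)} (hC₁ : IsBody C₁) (hC₂ : IsBody C₂)
    (hs₁ : IsSymm C₁) (hs₂ : IsSymm C₂) (hC : LogBM C₁ C₂)
    {K L : Set (Fin (m + 1) → ℝ)} (hK : IsBody K) (hL : IsBody L) (hKs : IsSymm K)
    (hLs : IsSymm L) (h0K : ReflInv 0 K) (h0L : ReflInv 0 L)
    (hKsec : ∀ z : ℝ, IsBody (sec K z) → ∃ a : ℝ, 0 < a ∧ sec K z = a • C₁)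
    (hLsec : ∀ z : ℝ, IsBody (sec L z) → ∃ a : ℝ, 0 < a ∧ sec L z = a • C₂) : LogBM K L := by
  refine logBM_of_interior hK.1 hL.1 fun t ht0 ht1 => ?_
  refine fibre_step hK hL hKs hLs h0K h0L ht0 ht1 fun z₁ z₂ _ _ hb1 hb2 => ?_
  obtain ⟨a, ha, e1⟩ := hKsec z₁ hb1
  obtain ⟨b, hb, e2⟩ := hLsec z₂ hb2
  rw [e1, e2]
  exact ineq_dilates (supp_nonneg hC₁.1 hs₁ (hC₁.2.2.mono interior_subset))
    (supp_nonneg hC₂.1 hs₂ (hC₂.2.2.mono interior_subset)) ha hb ht0 ht1 (hC t ht0.le ht1.le)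

/-- The inequality for the pair `C, C`. -/
theorem logBM_self {C : Set (Fin m → ℝ)} (hC : IsBody C) (hs : IsSymm C) : LogBM C C := by
  intro t ht0 ht1
  rw [← ENNReal.rpow_add_of_nonneg _ _ (by linarith) ht0]
  have : C ⊆ logSum t C C := by
    intro x hx u _
    have h0 := supp_nonneg hC.1 hs (hC.2.2.mono interior_subset) u
    have e : supp C u ^ (1 - t) * supp C u ^ t = supp C u := by
      rw [← Real.rpow_add_of_nonneg h0 (by linarith) ht0]; simp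
    rw [e]
    exact le_supp hC.1 hx u
  simpa using measure_mono (μ := volume) this

end Vale.Agent.Lib.P227
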